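import Vale.Agent.Lib.P227.Flip3

open MeasureTheory Set Vale.Agent.Lib.P227

/-- The logarithmic Brunn-Minkowski inequality for pairs in `ℝ^(2 + r)` invariant under the
reflections negating each of the last `r` coordinates, and the reduction from dimension `d` to
pairs in dimension `d + r` invariant under the reflections of the last `r` coordinates. -/
theorem Vale.Agent.Results.P227.FlipLogBM.result :
    (∀ r : ℕ, LogBMFor (n := 2 + r) (FlipsFrom 2)) ∧
    (∀ d : ℕ, LogBMFor (n := d) (fun _ => True) → ∀ r : ℕ, LogBMFor (n := d + r) (FlipsFrom d)) :=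
  ⟨flips_logBM_two, flips_logBM⟩
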