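import Vale.Agent.Lib.P227.LogMink2

open MeasureTheory Set Vale.Agent.Lib.P227

/-- Logarithmic Brunn-Minkowski results for the polytopes `slabPolytope a z` with `n + 1` pairs of
facets in `ℝⁿ`. -/
theorem Vale.Agent.Results.P227.SlabLogBM.result {n : ℕ}
    (a : Fin (n + 1) → EuclideanSpace ℝ (Fin n))
    (hspan : Submodule.span ℝ (range a) = ⊤) (ha0 : ∀ i, a i ≠ 0) :
    DirectionalLogBM a ∧ FanLogBM a ∧
      ((∀ i j, i ≠ j → ∀ r : ℝ, a i ≠ r • a j) → SlabLogMinkowski a) := by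
  have hn : 0 < n := by
    rcases Nat.eq_zero_or_pos n with rfl | h
    · exact absurd (Subsingleton.elim _ _) (ha0 0)
    · exact h
  refine ⟨fun K L hK hL t t0 t1 =>
      discrete_log_bm hspan ha0 hK.1 hL.1 hK.2.1 hL.2.1 hK.2.2 hL.2.2 t0 t1,
    fun z w hz hw hfan t t0 t1 => wulff_log_bm hspan ha0 hz hw hfan t0 t1,
    fun hpar z hz => ⟨sum_conePart hz hpar, fun L hL =>
      log_minkowski hspan ha0 hpar hn hz hL.1 hL.2.1 hL.2.2⟩⟩
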