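import Vale.Agent.Lib.P227Y.Main

open MeasureTheory Vale.Agent.Lib.P227Z

/-- The logarithmic Minkowski inequality at every zonoid `K ⊂ ℝⁿ`, `n = d + 1`, against every
origin-symmetric `L`, and the logarithmic Brunn-Minkowski inequality for every pair whose logarithmic
combination is a zonoid. For almost every `x ∈ K` the vector `p = gaugeGrad K x` of partial derivatives
of the gauge of `K` is the outer normal of `K` at the boundary point `x / gauge K x`, with `h_K (p) = 1`;
the image of normalised Lebesgue measure on `K` under `x ↦ p` is the normalised cone-volume measure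
of `K`, and `h_L (p) / h_K (p)` is unchanged under scaling of `p`. -/
theorem Vale.Agent.Results.P227.ZonoidLogMinkowski.result {d : ℕ} :
    (∀ (m : ℕ) (g : Fin m → V (d + 1)), IsZonoid (zonotope g)) ∧
    ∀ K : Set (V (d + 1)), IsZonoid K → 0 < volume K →
    (∀ᵐ x ∂(volume.restrict K), supp K (gaugeGrad K x) = 1 ∧ x ⬝ᵥ gaugeGrad K x = gauge K x) ∧
    (∀ L : Set (V (d + 1)), SymB L →
      IntegrableOn (fun x => Real.log (supp L (gaugeGrad K x) / supp K (gaugeGrad K x))) K ∧
      1 / ((d : ℝ) + 1) * Real.log ((volume L).toReal / (volume K).toReal) ≤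
        1 / (volume K).toReal *
          ∫ x in K, Real.log (supp L (gaugeGrad K x) / supp K (gaugeGrad K x))) ∧
    (∀ K₀ K₁ : Set (V (d + 1)), SymB K₀ → SymB K₁ → ∀ t : ℝ, 0 ≤ t → t ≤ 1 →
      logCombV K₀ K₁ t = K → volume K₀ ^ (1 - t) * volume K₁ ^ t ≤ volume K) := by
  refine ⟨fun m g => ⟨isCompact_zonotope g, ?_, ?_, fun ε hε => ⟨m, g, ?_, ?_⟩⟩, fun K hK hV => ?_⟩
  · rintro x ⟨t, ht, rfl⟩ y ⟨s, hs, rfl⟩ a b ha hb hab
    refine ⟨fun i => a * t i + b * s i, fun i => ?_, ?_⟩
    · calc |a * t i + b * s i| ≤ |a * t i| + |b * s i| := abs_add_le _ _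
        _ = a * |t i| + b * |s i| := by rw [abs_mul, abs_mul, abs_of_nonneg ha, abs_of_nonneg hb]
        _ ≤ a * 1 + b * 1 := by gcongr <;> [exact ht i; exact hs i]
        _ = 1 := by rw [mul_one, mul_one, hab]
    · simp only [Finset.smul_sum, add_smul, Finset.sum_add_distrib, smul_smul]
  · rintro x ⟨t, ht, rfl⟩
    refine ⟨fun i => -t i, fun i => by simpa using ht i, ?_⟩
    simp [Finset.sum_neg_distrib]
  · exact Metric.self_subset_cthickening _
  · exact Metric.self_subset_cthickening _
  have hB : Body K := Body.of_zonoid hK hV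
  have hne : ∀ᵐ x ∂(volume : Measure (V (d + 1))), x ≠ 0 := by
    filter_upwards [compl_mem_ae_iff.2 (measure_singleton (0 : V (d + 1)))] with x hx
    simpa using hx
  have hfirst : ∀ᵐ x ∂(volume : Measure (V (d + 1))),
      supp K (gaugeGrad K x) = 1 ∧ x ⬝ᵥ gaugeGrad K x = gauge K x := by
    filter_upwards [hne, hB.ae_diff] with x hx hd
    exact ⟨hB.supp_grad hd hx, hB.dot_grad_self hd⟩
  have hKfin : volume K ≠ ⊤ := hK.1.measure_lt_top.ne
  have hKr : 0 < (volume K).toReal := ENNReal.toReal_pos hV.ne' hKfin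
  refine ⟨ae_restrict_of_ae hfirst, fun L hL => ?_, fun K₀ K₁ h₀ h₁ t t0 t1 hQ =>
    q1_of_zonoid hK hV h₀ h₁ t0 t1 hQ⟩
  have hcongr : (fun x => Real.log (supp L (gaugeGrad K x) / supp K (gaugeGrad K x)))
      =ᵐ[volume.restrict K] fun x => Real.log (supp L (gaugeGrad K x)) := by
    refine ae_restrict_of_ae ?_
    filter_upwards [hfirst] with x hx
    rw [hx.1, div_one]
  constructor
  · exact (hB.integrableOn_log hL).congr hcongr.symm
  · rw [MeasureTheory.integral_congr_ae hcongr]
    have h := log_minkowski_zonoid hK hV hL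
    have hd : (0 : ℝ) < (d : ℝ) + 1 := by positivity
    calc 1 / ((d : ℝ) + 1) * Real.log ((volume L).toReal / (volume K).toReal)
        = 1 / (volume K).toReal * ((volume K).toReal / ((d : ℝ) + 1) *
            Real.log ((volume L).toReal / (volume K).toReal)) := by
          field_simp
      _ ≤ _ := by
          exact mul_le_mul_of_nonneg_left h (by positivity)
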