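import Vale.Agent.Results.P227.FibrationLogMinkowski
import Vale.Agent.Results.P227.FlipLogBM
import Vale.Agent.Results.P227.SlabLogBM
import Vale.Agent.Results.P227.ZonoidLogMinkowski

open MeasureTheory Vale.Agent.Lib.P227Z

namespace Vale.Agent.Results.P227.A0Conj

/-- Part (1): the class of bodies with the global logarithmic Minkowski inequality. -/
def FibrationPart : Prop :=

    ((∀ (d : ℕ) (K : Set (V (d + 1))), Body K →
      (∀ᵐ x ∂(volume.restrict K), supp K (gaugeGrad K x) = 1 ∧ x ⬝ᵥ gaugeGrad K x = gauge K x) ∧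
      ∀ L : Set (V (d + 1)), SymB L →
        IntegrableOn (fun x => Real.log (supp L (gaugeGrad K x))) K) ∧
    (∀ (d : ℕ) (K : Set (V (d + 1))), IsZonoid K → 0 < volume K → LogMinkAt K) ∧
    (∀ (n : ℕ) (K : Set (V n)) (T : V n ≃L[ℝ] V n), LogMinkAt K → LogMinkAt (T '' K)) ∧
    (∀ (a b : ℕ) (K₁ : Set (V (a + 1))) (K₂ : Set (V (b + 1))), LogMinkAt K₁ → LogMinkAt K₂ →
      LogMinkAt (prodBody K₁ K₂) ∧ LogMinkAt (freeSum K₁ K₂)) ∧
    (∀ (a : ℕ) (K₀ : Set (V (a + 1))) (ρ : ℝ → ℝ) (T : ℝ), LogMinkAt K₀ → IsProfile ρ T →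
      LogMinkAt (fib K₀ ρ T)) ∧
    (∀ (q : ℝ) (n : ℕ), 1 ≤ q → LogMinkAt (lpBall q (n + 1))) ∧
    (∀ (n : ℕ) (ρ : ℝ → ℝ) (T : ℝ), IsProfile ρ T → LogMinkAt (revBody (n + 1) ρ T)) ∧
    (∀ (n : ℕ) (L : Set (V (n + 1))), SymB L →
      (volume L).toReal ≤ 2 ^ (n + 1) / ((n + 1).factorial : ℝ) *
        Real.exp (((n : ℝ) + 1) / 2 ^ (n + 1) *
          ∑ ξ : Fin (n + 1) → Bool, Real.log (supp L fun i => if ξ i then 1 else -1))) ∧
    (∀ (d : ℕ) (K K₀ K₁ : Set (V (d + 1))) (t : ℝ), LogMinkAt K → SymB K₀ → SymB K₁ → 0 ≤ t → t ≤ 1 →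
      logCombV K₀ K₁ t = K → volume K₀ ^ (1 - t) * volume K₁ ^ t ≤ volume K))

/-- Part (3): pairs invariant under the reflections of the last `r` coordinates. -/
def FlipPart : Prop :=
    ((∀ r : ℕ, Vale.Agent.Lib.P227.LogBMFor (n := 2 + r) (Vale.Agent.Lib.P227.FlipsFrom 2)) ∧
    (∀ d : ℕ, Vale.Agent.Lib.P227.LogBMFor (n := d) (fun _ => True) →
      ∀ r : ℕ, Vale.Agent.Lib.P227.LogBMFor (n := d + r) (Vale.Agent.Lib.P227.FlipsFrom d)))

end Vale.Agent.Results.P227.A0Conj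

open Vale.Agent.Results.P227.A0Conj in
/-- Complementary parts of the logarithmic Brunn-Minkowski problem: (1) the class of bodies with the global logarithmic Minkowski inequality; (2) pairs invariant under the reflections of the last r coordinates. -/
theorem Vale.Agent.Results.P227.A0Conj.result :
    FibrationPart ∧ FlipPart :=
  ⟨Vale.Agent.Results.P227.FibrationLogMinkowski.result,
    Vale.Agent.Results.P227.FlipLogBM.result⟩
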