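import Vale.Agent.Lib.P227H.FreeMain
import Vale.Agent.Lib.P227H.ProdBody
import Vale.Agent.Lib.P227H.CrossExplicit

open MeasureTheory Vale.Agent.Lib.P227Z

/-- The class of compact convex origin-symmetric bodies `K` at which the global logarithmic Minkowski
inequality holds against every compact origin-symmetric `L` (`LogMinkAt K`) contains the zonoids and is closed
under linear isomorphisms, products, free sums and homothetic fibrations `K₀[ρ]`, `ρ` even and concave. So it contains the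
`ℓ_q` balls, `q ≥ 1`, all origin-symmetric bodies of revolution, and (by iteration from segments) all Hanner polytopes.
Explicit form at the cross-polytope. The first line recalls the meaning of `gaugeGrad`: at almost every `x ∈ K`
the vector `p = gaugeGrad K x` of partial derivatives of the gauge of `K` is the outer normal of `K` at `x / gauge K x`, with
`h_K (p) = 1`, so the integral in `LogMinkAt` is the integral of `log (h_L / h_K)` against the cone-volume measure of `K`. The last line: the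
logarithmic Brunn-Minkowski inequality for all pairs whose logarithmic combination lies in the class. -/
theorem Vale.Agent.Results.P227.FibrationLogMinkowski.result :
    (∀ (d : ℕ) (K : Set (V (d + 1))), Body K →
      (∀ᵐ x ∂(volume.restrict K), supp K (gaugeGrad K x) = 1 ∧ x ⬝ᵥ gaugeGrad K x = gauge K x) ∧
      ∀ L : Set (V (d + 1)), SymB L →
        IntegrableOn (fun x => Real.log (supp L (gaugeGrad K x))) K) ∧
    (∀ (d : ℕ) (K : Set (V (d + 1))), IsZonoid K → 0 < volume K → LogMinkAt K) ∧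
    (∀ (n : ℕ) (K : Set (V n)) (T : V n ≃L[ℝ] V n), LogMinkAt K → LogMinkAt (T '' K)) ∧
    (∀ (a b : ℕ) (K₁ : Set (V (a + 1))) (K₂ : Set (V (b + 1))), LogMinkAt K₁ → LogMinkAt K₂ →
      LogMinkAt (prodBody K₁ K₂) ∧ LogMinkAt (freeSum K₁ K₂)) ∧
    (∀ (a : ℕ) (K₀ : Set (V (a + 1))) (ρ : ℝ → ℝ) (T : ℝ), LogMinkAt K₀ → IsProfile ρ T →
      LogMinkAt (fib K₀ ρ T)) ∧
    (∀ (q : ℝ) (n : ℕ), 1 ≤ q → LogMinkAt (lpBall q (n + 1))) ∧
    (∀ (n : ℕ) (ρ : ℝ → ℝ) (T : ℝ), IsProfile ρ T → LogMinkAt (revBody (n + 1) ρ T)) ∧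
    (∀ (n : ℕ) (L : Set (V (n + 1))), SymB L →
      (volume L).toReal ≤ 2 ^ (n + 1) / ((n + 1).factorial : ℝ) *
        Real.exp (((n : ℝ) + 1) / 2 ^ (n + 1) *
          ∑ ξ : Fin (n + 1) → Bool, Real.log (supp L fun i => if ξ i then 1 else -1))) ∧
    (∀ (d : ℕ) (K K₀ K₁ : Set (V (d + 1))) (t : ℝ), LogMinkAt K → SymB K₀ → SymB K₁ → 0 ≤ t → t ≤ 1 →
      logCombV K₀ K₁ t = K → volume K₀ ^ (1 - t) * volume K₁ ^ t ≤ volume K) := by
  refine ⟨fun d K hB => ⟨?_, fun L hL => hB.integrableOn_log hL⟩,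
    fun d K hK hV => logMinkAt_of_zonoid hK hV,
    fun n K T hK => hK.linear T,
    fun a b K₁ K₂ h₁ h₂ => ⟨logMinkAt_prodBody (by omega) (by omega) h₁ h₂,
      logMinkAt_freeSum (by omega) (by omega) h₁ h₂⟩,
    fun a K₀ ρ T hK₀ hρ => logMinkAt_fib (by omega) hK₀ hρ,
    fun q n hq => logMinkAt_lpBall hq n,
    fun n ρ T hρ => logMinkAt_revBody n hρ,
    fun n L hL => cross_explicit n hL,
    fun d K K₀ K₁ t hK h₀ h₁ t0 t1 hQ => q1_of_logMinkAt hK h₀ h₁ t0 t1 hQ⟩
  have hne : ∀ᵐ x ∂(volume : Measure (V (d + 1))), x ≠ 0 := by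
    filter_upwards [compl_mem_ae_iff.2 (measure_singleton (0 : V (d + 1)))] with x hx
    simpa using hx
  refine ae_restrict_of_ae ?_
  filter_upwards [hne, hB.ae_diff] with x hx hd
  exact ⟨hB.supp_grad hd hx, hB.dot_grad_self hd⟩
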